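import Vale.Agent.P154.C3
import Vale.Agent.P154.C4
import Vale.Agent.P154.Tree

open Filter Topology Vale.Agent.P154

/-- Nonreconstruction at and below the Kesten-Stigum threshold for the ferromagnetic three- and
four-state Potts channels, for every degree, on both tree models. -/
theorem Vale.Agent.Results.P154.Ferro.result :
    ∀ q : ℕ, (q = 3 ∨ q = 4) → ∀ lam : ℝ, 0 ≤ lam → lam ≤ 1 →
      (∀ d : ℕ, 2 ≤ d → (d : ℝ) * lam ^ 2 ≤ 1 →
        Tendsto (adv q lam (offReg d)) atTop (𝓝 0)) ∧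
      (∀ d : ℝ, 0 < d → d * lam ^ 2 ≤ 1 →
        Tendsto (adv q lam (offPoi d)) atTop (𝓝 0)) := by
  intro q hq lam h0 h1
  have hC : 2 ≤ q ∧ Nonempty (Cert q) := by
    rcases hq with rfl | rfl
    · exact ⟨by norm_num, cert3⟩
    · exact ⟨by norm_num, cert4⟩
  obtain ⟨h2, ⟨C⟩⟩ := hC
  refine ⟨fun d hd hl => ?_, fun d hd hl => ?_⟩
  · obtain ⟨k1, k2, k3, k4⟩ := offs.1 d hd
    exact tree q h2 C lam h0 h1 _ d k1 k2 k3 k4 hl
  · obtain ⟨k1, k2, k3, k4⟩ := offs.2 d hd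
    exact tree q h2 C lam h0 h1 _ d k1 k2 k3 k4 hl
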