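import Vale.Agent.P154.AF.All
import Vale.Agent.P154.AF.Small

open Filter Topology Vale.Agent.P154
open scoped ENNReal

/-- The Kesten-Stigum threshold is the reconstruction threshold of the three-state Potts channel
(either sign of the eigenvalue) and of the ferromagnetic four-state Potts channel, for every
degree, on both tree models. -/
theorem Vale.Agent.Results.P154.Full.result :
    ∀ (q : ℕ) (lam : ℝ), ((q = 3 ∧ -1 / 2 ≤ lam) ∨ (q = 4 ∧ 0 ≤ lam)) → lam ≤ 1 →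
      (∀ d : ℕ, 2 ≤ d →
        ((d : ℝ) * lam ^ 2 ≤ 1 → Tendsto (adv q lam (offReg d)) atTop (𝓝 0)) ∧
        (1 < (d : ℝ) * lam ^ 2 → ∃ c : ℝ≥0∞, 0 < c ∧ ∀ n, c ≤ adv q lam (offReg d) n)) ∧
      (∀ d : ℝ, 0 < d →
        (d * lam ^ 2 ≤ 1 → Tendsto (adv q lam (offPoi d)) atTop (𝓝 0)) ∧
        (1 < d * lam ^ 2 → ∃ c : ℝ≥0∞, 0 < c ∧ ∀ n, c ≤ adv q lam (offPoi d) n)) :=
  AF.full_of
    (AF.af_reg (fun d lam A _ h0 h1 hd hl h => AF.smallR AF.sysS AF.Gl.anti lam d A h0 h1 hd hl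
      (by unfold AF.Reg at h; tauto)) AF.allR)
    (AF.af_poi (fun lam d A h0 h1 hd hl h => AF.smallP AF.sysS AF.Gl.anti lam d A h0 h1 hd hl h)
      le_rfl AF.allP)
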