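import Vale.Agent.Results.P154.Full

open Filter Topology Vale.Agent.P154
open scoped ENNReal

/-- Reconstruction holds exactly above the Kesten-Stigum threshold, for the three-state Potts
channel with any admissible eigenvalue and the ferromagnetic four-state Potts channel. -/
theorem Vale.Agent.Results.P154.Iff.result :
    ∀ (q : ℕ) (lam : ℝ), ((q = 3 ∧ -1 / 2 ≤ lam) ∨ (q = 4 ∧ 0 ≤ lam)) → lam ≤ 1 →
      (∀ d : ℕ, 2 ≤ d →
        (0 < liminf (adv q lam (offReg d)) atTop ↔ 1 < (d : ℝ) * lam ^ 2) ∧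
        (Tendsto (adv q lam (offReg d)) atTop (𝓝 0) ↔ (d : ℝ) * lam ^ 2 ≤ 1)) ∧
      (∀ d : ℝ, 0 < d →
        (0 < liminf (adv q lam (offPoi d)) atTop ↔ 1 < d * lam ^ 2) ∧
        (Tendsto (adv q lam (offPoi d)) atTop (𝓝 0) ↔ d * lam ^ 2 ≤ 1)) := by
  have key : ∀ (a : ℕ → ℝ≥0∞) (x : ℝ), (x ≤ 1 → Tendsto a atTop (𝓝 0)) →
      (1 < x → ∃ c : ℝ≥0∞, 0 < c ∧ ∀ n, c ≤ a n) →
      (0 < liminf a atTop ↔ 1 < x) ∧ (Tendsto a atTop (𝓝 0) ↔ x ≤ 1) := fun a x h k => by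
    have m : 1 < x → 0 < liminf a atTop := fun hx => by
      obtain ⟨c, c0, hc⟩ := k hx
      exact c0.trans_le (le_liminf_of_le (by isBoundedDefault) (Eventually.of_forall hc))
    refine ⟨⟨fun p => not_le.1 fun hx => p.ne' (h hx).liminf_eq, m⟩, fun p => ?_, h⟩
    exact not_lt.1 fun hx => (m hx).ne' p.liminf_eq
  intro q lam hq h1
  obtain ⟨hR, hP⟩ := Vale.Agent.Results.P154.Full.result q lam hq h1
  exact ⟨fun d hd => key _ _ (hR d hd).1 (hR d hd).2, fun d hd => key _ _ (hP d hd).1 (hP d hd).2⟩
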