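import Vale.Agent.P154.C3
import Vale.Agent.P154.C4
import Vale.Agent.P154.KS

open Filter Topology Vale.Agent.P154
open scoped ENNReal

/-- The reconstruction threshold of the ferromagnetic three- and four-state Potts channels is the
Kesten-Stigum threshold, for every degree, on both tree models. -/
theorem Vale.Agent.Results.P154.Threshold.result :
    ∀ q : ℕ, (q = 3 ∨ q = 4) → ∀ lam : ℝ, 0 ≤ lam → lam ≤ 1 →
      (∀ d : ℕ, 2 ≤ d →
        ((d : ℝ) * lam ^ 2 ≤ 1 → Tendsto (adv q lam (offReg d)) atTop (𝓝 0)) ∧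
        (1 < (d : ℝ) * lam ^ 2 → ∃ c : ℝ≥0∞, 0 < c ∧ ∀ n, c ≤ adv q lam (offReg d) n)) ∧
      (∀ d : ℝ, 0 < d →
        (d * lam ^ 2 ≤ 1 → Tendsto (adv q lam (offPoi d)) atTop (𝓝 0)) ∧
        (1 < d * lam ^ 2 → ∃ c : ℝ≥0∞, 0 < c ∧ ∀ n, c ≤ adv q lam (offPoi d) n)) := by
  intro q hq lam h0 h1
  have hC : 2 ≤ q ∧ Nonempty (Cert q) := by
    rcases hq with rfl | rfl
    · exact ⟨by norm_num, cert3⟩
    · exact ⟨by norm_num, cert4⟩
  obtain ⟨h2, ⟨C⟩⟩ := hC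
  have hP : ∀ i j, 0 ≤ chan q lam i j := fun i j => by
    have := sub_nonneg.2 h1
    unfold chan
    split_ifs <;> positivity
  refine ⟨fun d hd => ?_, fun d hd => ?_⟩
  · obtain ⟨k1, k2, k3, k4⟩ := offs.1 d hd
    exact ⟨fun hl => tree q h2 C lam h0 h1 _ d k1 k2 k3 k4 hl,
      fun hl => KS.ks h2 hP k1 k2 k3 (KS.reg2 d) hl⟩
  · obtain ⟨k1, k2, k3, k4⟩ := offs.2 d hd
    exact ⟨fun hl => tree q h2 C lam h0 h1 _ d k1 k2 k3 k4 hl,
      fun hl => KS.ks h2 hP k1 k2 k3 (KS.poi2 d) hl⟩
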